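import Vale.Agent.P087.T16

open scoped InnerProductSpace

namespace Vale.Agent.Results.P087.NotEqual

/-- The answer to Q1 is negative: there are `n ≥ 1` and self-adjoint `X_1, …, X_n` in a tracial von
Neumann algebra, with free semicirculars `S` free from `X`, such that `-∞ < χ(X) < χ*(X)`. -/
theorem result :
    ∃ (n : ℕ) (_ : 1 ≤ n) (H : Type) (_ : NormedAddCommGroup H) (_ : InnerProductSpace ℂ H)
      (_ : CompleteSpace H) (T : _root_.P087.TracialVN H) (X S : Fin n → (H →L[ℂ] H)),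
      (∀ j, X j ∈ T.M ∧ IsSelfAdjoint (X j)) ∧ T.IsFreeSemicircular X S ∧
        ⊥ < T.chi X ∧ T.chi X < T.chiStar X S := by
  obtain ⟨n, hn, H, i1, i2, i3, T, X, S, a, b, hab, hM, hX, hS, hbot, ha, hb⟩ :=
    _root_.P087.exists_gap
  exact ⟨n, hn, H, i1, i2, i3, T, X, S, fun j => ⟨hM j, hX j⟩, hS, hbot,
    lt_of_le_of_lt ha (lt_of_lt_of_le (by exact_mod_cast hab) hb)⟩

end Vale.Agent.Results.P087.NotEqual
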