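import Vale.Agent.P087.T16

open scoped InnerProductSpace

namespace Vale.Agent.Results.P087.Q1False

/-- The answer to Q1 is negative: it is not true that `χ(X) > -∞` implies `χ(X) = χ*(X)` for every
`n ≥ 1` and every self-adjoint `n`-tuple `X` in a tracial von Neumann algebra (`χ*` being computed
with free semicirculars `S`, free from `X`). -/
theorem result :
    ¬ ∀ (n : ℕ), 1 ≤ n → ∀ (H : Type) [NormedAddCommGroup H] [InnerProductSpace ℂ H]
      [CompleteSpace H] (T : _root_.P087.TracialVN H) (X S : Fin n → (H →L[ℂ] H)),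
      (∀ j, X j ∈ T.M) → (∀ j, IsSelfAdjoint (X j)) → T.IsFreeSemicircular X S →
        ⊥ < T.chi X → T.chi X = T.chiStar X S := by
  intro hall
  obtain ⟨n, hn, H, i1, i2, i3, T, X, S, a, b, hab, hM, hX, hS, hbot, ha, hb⟩ :=
    _root_.P087.exists_gap
  have heq := hall n hn H T X S hM hX hS hbot
  have hlt : T.chi X < T.chiStar X S :=
    lt_of_le_of_lt ha (lt_of_lt_of_le (by exact_mod_cast hab) hb)
  exact absurd heq hlt.ne

end Vale.Agent.Results.P087.Q1False
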